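import Vale.Agent.H20.OTMain

/-!
# P074: the stability exponent of quadratic optimal transport maps lies in `[1/4, 1/3]`

With `ρ` the uniform probability measure on a compact convex set `K ⊂ ℝ^d` with nonempty
interior and targets concentrated on a compact set `Y`, for quadratic optimal transport maps
(Monge minimizers) `T` from `ρ` to `μ` and `S` from `ρ` to `ν`:

* `‖T - S‖_{L²(ρ)} ≤ C * W₁(μ, ν)^(1/4)` and `‖T - S‖_{L²(ρ)} ≤ C * W₂(μ, ν)^(1/4)`, in every
  dimension;
* for `d ≥ 2` no exponent above `1/3` is admissible with respect to `W₂`;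
* for `d ≥ 2` no exponent above `1/4` is admissible with respect to `W₁`.
-/

namespace Vale.Agent.Results.P074.A_ExponentQuarterToThird

open MeasureTheory Vale.Agent.H20

theorem result :
    (∀ d : ℕ, AdmissibleExponent d W1 (1 / 4)) ∧
    (∀ d : ℕ, AdmissibleExponent d W2 (1 / 4)) ∧
    (∀ d : ℕ, 2 ≤ d → ∀ α : ℝ, 1 / 3 < α → ¬ AdmissibleExponent d W2 α) ∧
    (∀ d : ℕ, 2 ≤ d → ∀ α : ℝ, 1 / 4 < α → ¬ AdmissibleExponent d W1 α) :=
  ⟨admissible_quarter_W1, admissible_quarter_W2, not_admissible_above_third_W2,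
    not_admissible_above_quarter_W1⟩

end Vale.Agent.Results.P074.A_ExponentQuarterToThird
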