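import Vale.Agent.H20.OTThirdMain

/-!
# P074: the optimal stability exponent of quadratic optimal transport maps is exactly `1/3`

With `ρ` the uniform probability measure on a compact convex set `K ⊂ ℝ^d` with nonempty
interior and targets concentrated on a compact set `Y`, for quadratic optimal transport maps
(Monge minimizers) `T` from `ρ` to `μ` and `S` from `ρ` to `ν`:

* `‖T - S‖_{L²(ρ)} ≤ C * W₂(μ, ν)^(1/3)` with `C = C(K, Y)`, in every dimension;
* for `d ≥ 2` no exponent above `1/3` is admissible with respect to `W₂`.

Hence `α*_d = 1/3` for every `d ≥ 2`, and the supremum is attained.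
-/

namespace Vale.Agent.Results.P074.A_ExponentThirdExact

open MeasureTheory Vale.Agent.H20

theorem result :
    (∀ d : ℕ, AdmissibleExponent d W2 (1 / 3)) ∧
    (∀ d : ℕ, 2 ≤ d → ∀ α : ℝ, 1 / 3 < α → ¬ AdmissibleExponent d W2 α) :=
  ⟨admissible_third_W2, not_admissible_above_third_W2⟩

end Vale.Agent.Results.P074.A_ExponentThirdExact
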