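import Vale.Agent.H20.OTThirdMain

/-!
# P074: `α*_d = 1/3`, attained, in the literal form of the problem

`ρ` is the uniform probability measure on a compact convex set `K ⊂ ℝ^d` with nonempty interior,
the targets are concentrated on a compact set `Y`, and `T`, `S` are quadratic optimal transport
maps (Monge minimizers) from `ρ` to `μ` and to `ν`.  An exponent `α` is admissible with respect
to `W₂` if `‖T - S‖_{L²(ρ)} ≤ C(K, Y) * W₂(μ, ν)^α` for all such data.

* `1/3` is admissible in every dimension;
* for `d ≥ 2`: no real exponent above `1/3` is admissible; hence `1/3` is the greatest element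
  of the set of admissible exponents in `(0, 1]`, and the supremum `α*_d` of that set is `1/3`.

The two ingredients are the theorems `admissible_third_W2` and `not_admissible_above_third_W2`
of `Vale.Agent.H20.OTThirdMain`.
-/

namespace Vale.Agent.Results.P074.A_ExponentThirdExactLiteral

open MeasureTheory Vale.Agent.H20

theorem result :
    (∀ d : ℕ, AdmissibleExponent d W2 (1 / 3)) ∧
    (∀ d : ℕ, 2 ≤ d →
      (∀ α : ℝ, 1 / 3 < α → ¬ AdmissibleExponent d W2 α) ∧
      IsGreatest {α : ℝ | 0 < α ∧ α ≤ 1 ∧ AdmissibleExponent d W2 α} (1 / 3) ∧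
      sSup {α : ℝ | 0 < α ∧ α ≤ 1 ∧ AdmissibleExponent d W2 α} = 1 / 3) := by
  refine ⟨admissible_third_W2, fun d hd => ?_⟩
  have hg : IsGreatest {α : ℝ | 0 < α ∧ α ≤ 1 ∧ AdmissibleExponent d W2 α} (1 / 3) := by
    refine ⟨⟨by norm_num, by norm_num, admissible_third_W2 d⟩, ?_⟩
    intro α hα
    by_contra h
    exact not_admissible_above_third_W2 d hd α (lt_of_not_ge h) hα.2.2
  exact ⟨not_admissible_above_third_W2 d hd, hg, hg.csSup_eq⟩

end Vale.Agent.Results.P074.A_ExponentThirdExactLiteral
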