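import Vale.Agent.H20.OTUpper

/-!
# P074: no stability exponent above `1/3` is admissible, even for a convex source

For every `d ≥ 2` there are a box `K ⊂ ℝ^d` and a ball `Y` such that for every `α > 1/3` and
every constant `C` there are probability measures `μ, ν` on `Y` whose quadratic optimal
transport maps `T, S` from the uniform measure on `K` satisfy
`‖T - S‖_{L²(ρ)} > C * W₂(μ, ν)^α`.  Hence the supremum of admissible exponents is at most
`1/3`, and the exponent `1/2` is not admissible.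
-/

namespace Vale.Agent.Results.P074.A_NoExponentAboveThird

open MeasureTheory Vale.Agent.H20

theorem result :
    ∀ d : ℕ, 2 ≤ d →
    ∃ K Y : Set (EuclideanSpace ℝ (Fin d)),
      IsCompact K ∧ Convex ℝ K ∧ (interior K).Nonempty ∧ IsCompact Y ∧
      ∀ α : ℝ, 1 / 3 < α → ∀ C : ℝ,
        ∃ (μ ν : Measure (EuclideanSpace ℝ (Fin d)))
          (T S : EuclideanSpace ℝ (Fin d) → EuclideanSpace ℝ (Fin d)),
          IsProbabilityMeasure μ ∧ IsProbabilityMeasure ν ∧
          (∀ᵐ y ∂μ, y ∈ Y) ∧ (∀ᵐ y ∂ν, y ∈ Y) ∧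
          IsOptimalMap (ProbabilityTheory.cond volume K) μ T ∧
          IsOptimalMap (ProbabilityTheory.cond volume K) ν S ∧
          ENNReal.ofReal C * W2 μ ν ^ α
            < eLpNorm (fun x => T x - S x) 2 (ProbabilityTheory.cond volume K) := by
  intro d hd
  obtain ⟨K, Y, hK, hconv, hint, hY, h⟩ := third_upper_aux d hd
  refine ⟨K, Y, hK, hconv, hint, hY, fun α hα C => ?_⟩
  obtain ⟨μ, ν, T, S, h1, h2, h3, h4, h5, h6, -, -, h9⟩ := h α hα C
  exact ⟨μ, ν, T, S, h1, h2, h3, h4, h5, h6, h9⟩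

end Vale.Agent.Results.P074.A_NoExponentAboveThird
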