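import Vale.Agent.H20.OTFinal

/-!
# P074: the exponent `1/4` is admissible for the stability of quadratic optimal transport maps

For the uniform probability measure `ρ` on a compact convex set `K ⊂ ℝ^d` with nonempty interior
and targets concentrated on a compact set `Y`, Brenier maps (gradients of convex functions) are
`1/4`-Hölder stable from the `2`-Wasserstein distance to `L²(ρ)`.
-/

namespace Vale.Agent.Results.P074.A_QuarterHolder

open MeasureTheory Vale.Agent.H20

theorem result :
    ∀ (d : ℕ) (K Y : Set (EuclideanSpace ℝ (Fin d))),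
      IsCompact K → Convex ℝ K → (interior K).Nonempty → IsCompact Y →
      ∃ C : ℝ, ∀ (μ ν : Measure (EuclideanSpace ℝ (Fin d)))
        (T S : EuclideanSpace ℝ (Fin d) → EuclideanSpace ℝ (Fin d)),
        (∀ᵐ y ∂μ, y ∈ Y) → (∀ᵐ y ∂ν, y ∈ Y) →
        IsBrenierMap (ProbabilityTheory.cond volume K) T →
        (ProbabilityTheory.cond volume K).map T = μ →
        IsBrenierMap (ProbabilityTheory.cond volume K) S →
        (ProbabilityTheory.cond volume K).map S = ν →
        eLpNorm (fun x => T x - S x) 2 (ProbabilityTheory.cond volume K)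
          ≤ ENNReal.ofReal C * W2 μ ν ^ ((1 : ℝ) / 4) :=
  fun _ _ _ hKc hconv hint hYc => quarter_holder_aux hKc hconv hint hYc

end Vale.Agent.Results.P074.A_QuarterHolder
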